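import Vale.Agent.P328.Final

namespace Vale.Agent.Results.P328.Sampler

open Vale.Agent.P328

theorem result : ∃ (P : Prog) (bits time : Polynomial ℕ),
    ∀ (m n : ℕ) (r : Fin m → ℕ) (c : Fin n → ℕ) (k : ℕ), 1 ≤ m → 1 ≤ n → ∑ i, r i = ∑ j, c j →
      (∀ ω : Fin (bits.eval (len r c + k)) → Fin 2,
        (P.run (input r c k ω)).2 ≤ time.eval (len r c + k) ∧
        ∃ X ∈ Omega r c, (P.run (input r c k ω)).1 = table X) ∧
      (1 / 2 : ℝ) * ∑ X ∈ Omega r c,
        |(({ω : Fin (bits.eval (len r c + k)) → Fin 2 |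
            (P.run (input r c k ω)).1 = table X}.ncard : ℝ) / 2 ^ bits.eval (len r c + k)) -
          1 / ((Omega r c).card : ℝ)| ≤ (1 / 2 : ℝ) ^ k := by
  obtain ⟨P, hP, q, hq⟩ := pt_all
  obtain ⟨b, hb⟩ := pb_bits
  refine ⟨P, b.comp (2 * .X + 5), q.comp (2 * .X + 7 + 3 * b.comp (2 * .X + 5)),
    fun m n r c k m0 n0 hs => ?_⟩
  obtain ⟨x, hx⟩ : ∃ x : Inp, x = (List.ofFn r, List.ofFn c, List.replicate k 0) := ⟨_, rfl⟩
  have s1 : sz x ≤ 2 * (len r c + k) + 5 := by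
    rw [hx, sz_pair, sz_pair, sz_ofFn, sz_ofFn, sz_rep, len]; omega
  generalize hl : (b.comp (2 * .X + 5)).eval (len r c + k) = l
  have e : ∀ ω : Fin l → Fin 2, input r c k ω = Enc.enc (x, List.ofFn fun i => (ω i : ℕ)) :=
    fun ω => by rw [hx]; rfl
  have := law x (m := m) (n := n) (by simp [hx, Inp.m]) (by simp [hx, Inp.n]) r c
    (fun i => by simp [hx, Inp.r]) (fun j => by simp [hx, Inp.c]) m0 n0 hs (l := l)
    ((hb x).trans ((eval_mono b s1).trans_eq (by simp [← hl, Polynomial.eval_comp])))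
  rw [show x.k = k by simp [hx, Inp.k]] at this
  simp only [e, hP, toNum_eq]
  refine ⟨fun ω => ⟨(hq _).trans ?_, this.1 _⟩, this.2⟩
  rw [Polynomial.eval_comp]
  refine eval_mono q ?_
  have a : ∑ i, Nat.size (ω i) ≤ ∑ _i : Fin l, 1 :=
    Finset.sum_le_sum fun i _ => Nat.size_le.2 (ω i).2
  rw [sz_pair, sz_ofFn]
  simp only [Polynomial.eval_add, Polynomial.eval_mul, hl, Polynomial.eval_X, Polynomial.eval_ofNat]
  simp only [Finset.sum_const, Finset.card_univ, Fintype.card_fin, smul_eq_mul] at a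
  omega

end Vale.Agent.Results.P328.Sampler
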